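import Mathlib

/-!
# P207, block C1: sequences which are supermultiplicative up to windows of bounded size

If `a n * a m ≤ K ∑_{|j| ≤ c} a (n + m + j)` and `a` grows at most with the exponential rate `h`,
then `a n ≤ C exp (h n)`.
-/

open Set Filter

noncomputable section

namespace Vale.Agent.P207.C1

/-- One step of the doubling argument. -/
theorem exists_double {b : ℕ → ℝ} {c : ℕ} {Λ : ℝ}
    (hsup : ∀ n, c ≤ n → b n ^ 2 ≤ Λ / (2 * c + 1) * ∑ j ∈ Finset.Icc (2 * n - c) (2 * n + c), b j)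
    {n : ℕ} (hn : 2 * c ≤ n) :
    ∃ m, 2 * n - c ≤ m ∧ m ≤ 2 * n + c ∧ b n ^ 2 ≤ Λ * b m := by
  by_contra hcon
  push Not at hcon
  have h1 := hsup n (by omega)
  have hcard : (Finset.Icc (2 * n - c) (2 * n + c)).card = 2 * c + 1 := by
    rw [Nat.card_Icc]; omega
  have hne : (Finset.Icc (2 * n - c) (2 * n + c)).Nonempty := by
    rw [Finset.nonempty_Icc]; omega
  have h2 : Λ * ∑ j ∈ Finset.Icc (2 * n - c) (2 * n + c), b j <
      ∑ j ∈ Finset.Icc (2 * n - c) (2 * n + c), b n ^ 2 := by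
    rw [Finset.mul_sum]
    refine Finset.sum_lt_sum_of_nonempty hne fun j hj => ?_
    rw [Finset.mem_Icc] at hj
    exact hcon j hj.1 hj.2
  rw [Finset.sum_const, hcard, nsmul_eq_mul] at h2
  push_cast at h2
  have h3 : (0 : ℝ) < 2 * c + 1 := by positivity
  rw [div_mul_eq_mul_div, le_div_iff₀ h3] at h1
  linarith

/-- The doubling argument. -/
theorem le_of_double {b : ℕ → ℝ} {c : ℕ} {Λ : ℝ} (hΛ : 0 < Λ) (hc : 0 < c)
    (hsup : ∀ n, c ≤ n → b n ^ 2 ≤ Λ / (2 * c + 1) * ∑ j ∈ Finset.Icc (2 * n - c) (2 * n + c), b j)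
    (hgr : ∀ s > 0, ∃ C, ∀ n, b n ≤ C * Real.exp (s * n)) {n : ℕ} (hn : 2 * c ≤ n) :
    b n ≤ Λ := by
  by_contra hcon
  push Not at hcon
  -- the sequence of indices
  have key : ∀ k : ℕ, ∃ m, 2 * c ≤ m ∧ ((m : ℝ) + c ≤ 2 ^ k * (n + c)) ∧
      (b n / Λ) ^ (2 ^ k) ≤ b m / Λ := by
    intro k
    induction k with
    | zero => exact ⟨n, hn, by simp, by simp⟩
    | succ k ih =>
      obtain ⟨m, hm1, hm2, hm3⟩ := ih
      obtain ⟨m', h1, h2, h3⟩ := exists_double hsup hm1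
      refine ⟨m', by omega, ?_, ?_⟩
      · have : (m' : ℝ) ≤ 2 * m + c := by exact_mod_cast h2
        rw [pow_succ]
        nlinarith
      · have h0 : (0 : ℝ) ≤ (b n / Λ) ^ (2 ^ k) :=
          pow_nonneg (div_nonneg (hΛ.le.trans hcon.le) hΛ.le) _
        calc (b n / Λ) ^ (2 ^ (k + 1)) = ((b n / Λ) ^ (2 ^ k)) ^ 2 := by
              rw [← pow_mul, pow_succ]
          _ ≤ (b m / Λ) ^ 2 := pow_le_pow_left₀ h0 hm3 2
          _ ≤ b m' / Λ := by
              rw [div_pow, div_le_div_iff₀ (by positivity) hΛ]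
              nlinarith
  set r := b n / Λ with hr
  have hr1 : 1 < r := by rw [hr, one_lt_div hΛ]; exact hcon
  have hlog : 0 < Real.log r := Real.log_pos hr1
  have hnc : (0 : ℝ) < n + c := by
    have : (0 : ℝ) < c := by exact_mod_cast hc
    positivity
  set s := Real.log r / (2 * (n + c)) with hs
  have hs0 : 0 < s := by positivity
  obtain ⟨C, hC⟩ := hgr s hs0
  -- `exp (2^k log r) ≤ (C/Λ) exp (s 2^k (n+c)) = (C/Λ) exp (2^k log r / 2)`
  have hb : ∀ k : ℕ, Real.exp (2 ^ k * (Real.log r / 2)) ≤ |C| / Λ := by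
    intro k
    obtain ⟨m, hm1, hm2, hm3⟩ := key k
    have h1 : b m ≤ |C| * Real.exp (s * m) :=
      (hC m).trans (mul_le_mul_of_nonneg_right (le_abs_self C) (Real.exp_pos _).le)
    have h2 : s * m ≤ 2 ^ k * (Real.log r / 2) := by
      have h3 : s * m ≤ s * (2 ^ k * (n + c)) := by
        apply mul_le_mul_of_nonneg_left _ hs0.le
        have : (0 : ℝ) ≤ c := by positivity
        linarith
      refine h3.trans_eq ?_
      rw [hs]
      field_simp
    have h4 : (r : ℝ) ^ (2 ^ k) = Real.exp (2 ^ k * Real.log r) := by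
      have : r = Real.exp (Real.log r) := (Real.exp_log (by linarith)).symm
      conv_lhs => rw [this]
      rw [← Real.exp_nat_mul]
      push_cast
      rfl
    have h5 : Real.exp (2 ^ k * Real.log r) ≤ |C| / Λ * Real.exp (2 ^ k * (Real.log r / 2)) := by
      rw [← h4]
      refine hm3.trans ?_
      rw [div_mul_eq_mul_div]
      apply div_le_div_of_nonneg_right _ hΛ.le
      exact h1.trans (mul_le_mul_of_nonneg_left (Real.exp_le_exp.2 h2) (abs_nonneg _))
    have h6 : Real.exp (2 ^ k * Real.log r) =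
        Real.exp (2 ^ k * (Real.log r / 2)) * Real.exp (2 ^ k * (Real.log r / 2)) := by
      rw [← Real.exp_add]; congr 1; ring
    rw [h6] at h5
    exact le_of_mul_le_mul_right h5 (Real.exp_pos _)
  obtain ⟨k, hk⟩ : ∃ k : ℕ, |C| / Λ < 2 ^ k * (Real.log r / 2) := by
    obtain ⟨k, hk⟩ := pow_unbounded_of_one_lt (|C| / Λ / (Real.log r / 2)) (one_lt_two (α := ℝ))
    exact ⟨k, by rwa [div_lt_iff₀ (by positivity)] at hk⟩
  have h1 := hb k
  have h2 := Real.add_one_le_exp (2 ^ k * (Real.log r / 2))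
  linarith

/-- A sequence of nonnegative numbers which is supermultiplicative up to windows and grows at most
with the exponential rate `h` is bounded by `C exp (h n)`. -/
theorem bound_of_windows {a : ℕ → ℝ} (ha : ∀ n, 0 ≤ a n) {c : ℕ} {K h : ℝ} (hK : 0 < K)
    (hsup : ∀ n m, c ≤ n → c ≤ m →
      a n * a m ≤ K * ∑ j ∈ Finset.Icc (n + m - c) (n + m + c), a j)
    (hgr : ∀ s > h, ∃ C, ∀ n, a n ≤ C * Real.exp (s * n)) :
    ∃ C, 0 < C ∧ ∀ n : ℕ, a n ≤ C * Real.exp (h * n) := by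
  set d := c + 1 with hd
  set b : ℕ → ℝ := fun n => a n * Real.exp (-(h * n)) with hb
  have hb0 : ∀ n, 0 ≤ b n := fun n => mul_nonneg (ha n) (Real.exp_pos _).le
  set Λ := (2 * (d : ℝ) + 1) * (K * Real.exp (|h| * d)) with hΛ
  have hΛ0 : 0 < Λ := by positivity
  have hsup' : ∀ n, d ≤ n →
      b n ^ 2 ≤ Λ / (2 * d + 1) * ∑ j ∈ Finset.Icc (2 * n - d) (2 * n + d), b j := by
    intro n hn
    have h1 := hsup n n (by omega) (by omega)
    have e1 : Λ / (2 * d + 1) = K * Real.exp (|h| * d) := by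
      rw [hΛ]; field_simp
    rw [e1]
    have h2 : ∑ j ∈ Finset.Icc (n + n - c) (n + n + c), a j ≤
        ∑ j ∈ Finset.Icc (2 * n - d) (2 * n + d), a j := by
      apply Finset.sum_le_sum_of_subset_of_nonneg
      · intro j hj
        rw [Finset.mem_Icc] at hj ⊢
        omega
      · intro j _ _
        exact ha j
    have h3 : ∀ j ∈ Finset.Icc (2 * n - d) (2 * n + d),
        Real.exp (-(h * n)) * Real.exp (-(h * n)) * a j ≤ Real.exp (|h| * d) * b j := by
      intro j hj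
      rw [Finset.mem_Icc] at hj
      have h4 : |(j : ℝ) - 2 * n| ≤ d := by
        rw [abs_le]
        have h5 : 2 * n ≤ j + d := by omega
        have h6 : j ≤ 2 * n + d := hj.2
        have h5' : (2 * n : ℝ) ≤ j + d := by exact_mod_cast h5
        have h6' : (j : ℝ) ≤ 2 * n + d := by exact_mod_cast h6
        constructor <;> linarith
      have h7 : Real.exp (-(h * n)) * Real.exp (-(h * n)) ≤
          Real.exp (|h| * d) * Real.exp (-(h * j)) := by
        rw [← Real.exp_add, ← Real.exp_add]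
        apply Real.exp_le_exp.2
        have h8 : h * ((j : ℝ) - 2 * n) ≤ |h| * d := by
          calc h * ((j : ℝ) - 2 * n) ≤ |h * ((j : ℝ) - 2 * n)| := le_abs_self _
            _ = |h| * |(j : ℝ) - 2 * n| := abs_mul _ _
            _ ≤ |h| * d := mul_le_mul_of_nonneg_left h4 (abs_nonneg _)
        linarith
      calc Real.exp (-(h * n)) * Real.exp (-(h * n)) * a j
          ≤ Real.exp (|h| * d) * Real.exp (-(h * j)) * a j :=
            mul_le_mul_of_nonneg_right h7 (ha j)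
        _ = Real.exp (|h| * d) * b j := by rw [hb]; ring
    calc b n ^ 2 = Real.exp (-(h * n)) * Real.exp (-(h * n)) * (a n * a n) := by rw [hb]; ring
      _ ≤ Real.exp (-(h * n)) * Real.exp (-(h * n)) *
          (K * ∑ j ∈ Finset.Icc (2 * n - d) (2 * n + d), a j) := by
          apply mul_le_mul_of_nonneg_left _ (by positivity)
          exact h1.trans (mul_le_mul_of_nonneg_left h2 hK.le)
      _ = K * ∑ j ∈ Finset.Icc (2 * n - d) (2 * n + d),
          Real.exp (-(h * n)) * Real.exp (-(h * n)) * a j := by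
          rw [← Finset.mul_sum]; ring
      _ ≤ K * ∑ j ∈ Finset.Icc (2 * n - d) (2 * n + d), Real.exp (|h| * d) * b j :=
          mul_le_mul_of_nonneg_left (Finset.sum_le_sum h3) hK.le
      _ = K * Real.exp (|h| * d) * ∑ j ∈ Finset.Icc (2 * n - d) (2 * n + d), b j := by
          rw [← Finset.mul_sum]; ring
  have hgr' : ∀ s > 0, ∃ C, ∀ n : ℕ, b n ≤ C * Real.exp (s * n) := by
    intro s hs
    obtain ⟨C, hC⟩ := hgr (h + s) (by linarith)
    refine ⟨C, fun n => ?_⟩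
    calc b n ≤ C * Real.exp ((h + s) * n) * Real.exp (-(h * n)) :=
          mul_le_mul_of_nonneg_right (hC n) (Real.exp_pos _).le
      _ = C * Real.exp (s * n) := by
          rw [mul_assoc, ← Real.exp_add]
          congr 2
          ring
  have hmain : ∀ n, 2 * d ≤ n → b n ≤ Λ := fun n hn =>
    le_of_double hΛ0 (by omega) hsup' hgr' hn
  refine ⟨Λ + ∑ j ∈ Finset.range (2 * d), b j, ?_, fun n => ?_⟩
  · have := Finset.sum_nonneg fun j (_ : j ∈ Finset.range (2 * d)) => hb0 j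
    linarith
  · have h1 : b n ≤ Λ + ∑ j ∈ Finset.range (2 * d), b j := by
      rcases le_or_gt (2 * d) n with h | h
      · have := Finset.sum_nonneg fun j (_ : j ∈ Finset.range (2 * d)) => hb0 j
        linarith [hmain n h]
      · have := Finset.single_le_sum (f := b) (fun j _ => hb0 j) (Finset.mem_range.2 h)
        linarith
    calc a n = b n * Real.exp (h * n) := by
          rw [hb]
          simp only
          rw [mul_assoc, ← Real.exp_add]
          simp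
      _ ≤ _ := mul_le_mul_of_nonneg_right h1 (Real.exp_pos _).le

/-- Counting by windows: if the number of `i` with `⌈ℓ i⌉₊ = n` is at most `C exp (h n)`, `0 < h`,
then the number of `i` with `ℓ i ≤ R` is at most `C' exp (h R)`. -/
theorem ncard_le_of_windows {ι : Type} (ℓ : ι → ℝ) {C h : ℝ} (hC : 0 ≤ C) (hh : 0 < h)
    (hfin : ∀ R : ℝ, {i | ℓ i ≤ R}.Finite)
    (hw : ∀ n : ℕ, ({i | ⌈ℓ i⌉₊ = n}.ncard : ℝ) ≤ C * Real.exp (h * n)) {R : ℝ} (hR : 0 ≤ R) :
    ({i | ℓ i ≤ R}.ncard : ℝ) ≤ C * Real.exp h * (1 - Real.exp (-h))⁻¹ * Real.exp (h * R) := by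
  classical
  have hr0 : 0 ≤ Real.exp (-h) := (Real.exp_pos _).le
  have hr1 : Real.exp (-h) < 1 := by rw [Real.exp_lt_one_iff]; linarith
  set N := ⌈R⌉₊ with hN
  have hfw : ∀ n : ℕ, {i | ⌈ℓ i⌉₊ = n}.Finite := by
    intro n
    refine (hfin n).subset fun i hi => ?_
    have h1 : ℓ i ≤ ⌈ℓ i⌉₊ := Nat.le_ceil _
    have h2 : ⌈ℓ i⌉₊ = n := hi
    rw [h2] at h1
    exact h1
  have hsub : {i | ℓ i ≤ R} ⊆ ⋃ n ∈ Finset.range (N + 1), {i | ⌈ℓ i⌉₊ = n} := by
    intro i hi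
    have h1 : ⌈ℓ i⌉₊ ≤ N := Nat.ceil_mono hi
    simp only [mem_iUnion, Finset.mem_range]
    exact ⟨⌈ℓ i⌉₊, by omega, rfl⟩
  have hU : (⋃ n ∈ Finset.range (N + 1), {i | ⌈ℓ i⌉₊ = n}).Finite :=
    Set.Finite.biUnion (Finset.finite_toSet _) fun n _ => hfw n
  have h1 : ({i | ℓ i ≤ R}.ncard : ℝ) ≤ ∑ n ∈ Finset.range (N + 1), C * Real.exp (h * n) := by
    calc ({i | ℓ i ≤ R}.ncard : ℝ)
        ≤ ((⋃ n ∈ Finset.range (N + 1), {i | ⌈ℓ i⌉₊ = n}).ncard : ℝ) := by
          exact_mod_cast Set.ncard_le_ncard hsub hU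
      _ ≤ ∑ n ∈ Finset.range (N + 1), ({i | ⌈ℓ i⌉₊ = n}.ncard : ℝ) := by
          exact_mod_cast Finset.set_ncard_biUnion_le (Finset.range (N + 1)) _
      _ ≤ _ := Finset.sum_le_sum fun n _ => hw n
  refine h1.trans ?_
  have hNR : (N : ℝ) ≤ R + 1 := (Nat.ceil_lt_add_one hR).le
  have h2 : ∑ n ∈ Finset.range (N + 1), C * Real.exp (h * n) =
      C * Real.exp (h * N) * ∑ k ∈ Finset.range (N + 1), Real.exp (-h) ^ k := by
    rw [Finset.mul_sum, ← Finset.sum_range_reflect]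
    refine Finset.sum_congr rfl fun k hk => ?_
    rw [Finset.mem_range] at hk
    rw [mul_assoc, ← Real.exp_nat_mul, ← Real.exp_add]
    congr 2
    have h3 : N + 1 - 1 - k = N - k := by omega
    rw [h3, Nat.cast_sub (by omega)]
    ring
  rw [h2]
  have h4 : ∑ k ∈ Finset.range (N + 1), Real.exp (-h) ^ k ≤ (1 - Real.exp (-h))⁻¹ := by
    rw [← tsum_geometric_of_lt_one hr0 hr1]
    exact (summable_geometric_of_lt_one hr0 hr1).sum_le_tsum _ fun k _ => pow_nonneg hr0 k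
  have h5 : Real.exp (h * N) ≤ Real.exp h * Real.exp (h * R) := by
    rw [← Real.exp_add]
    apply Real.exp_le_exp.2
    nlinarith
  have h6 : 0 ≤ (1 - Real.exp (-h))⁻¹ := inv_nonneg.2 (by linarith)
  calc C * Real.exp (h * N) * ∑ k ∈ Finset.range (N + 1), Real.exp (-h) ^ k
      ≤ C * Real.exp (h * N) * (1 - Real.exp (-h))⁻¹ :=
        mul_le_mul_of_nonneg_left h4 (by positivity)
    _ ≤ C * (Real.exp h * Real.exp (h * R)) * (1 - Real.exp (-h))⁻¹ :=
        mul_le_mul_of_nonneg_right (mul_le_mul_of_nonneg_left h5 hC) h6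
    _ = _ := by ring

/-- Pure exponential bound of a counting function whose windows are supermultiplicative. -/
theorem exists_ncard_le_of_windows {ι : Type} (ℓ : ι → ℝ) {K h : ℝ} {c : ℕ} (hK : 0 < K) (hh : 0 < h)
    (hfin : ∀ R : ℝ, {i | ℓ i ≤ R}.Finite)
    (hsup : ∀ n m : ℕ, c ≤ n → c ≤ m →
      ({i | ⌈ℓ i⌉₊ = n}.ncard : ℝ) * ({i | ⌈ℓ i⌉₊ = m}.ncard : ℝ) ≤
        K * ({i | ⌈ℓ i⌉₊ ∈ Finset.Icc (n + m - c) (n + m + c)}.ncard : ℝ))
    (hgr : ∀ s > h, ∃ C : ℝ, ∀ R : ℝ, 0 ≤ R → ({i | ℓ i ≤ R}.ncard : ℝ) ≤ C * Real.exp (s * R)) :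
    ∃ C : ℝ, 0 < C ∧ ∀ R : ℝ, 0 ≤ R → ({i | ℓ i ≤ R}.ncard : ℝ) ≤ C * Real.exp (h * R) := by
  classical
  have hfw : ∀ n : ℕ, {i | ⌈ℓ i⌉₊ = n}.Finite := by
    intro n
    refine (hfin n).subset fun i hi => ?_
    have h1 : ℓ i ≤ ⌈ℓ i⌉₊ := Nat.le_ceil _
    have h2 : ⌈ℓ i⌉₊ = n := hi
    rw [h2] at h1
    exact h1
  obtain ⟨C, hC, hb⟩ := bound_of_windows (a := fun n => ({i | ⌈ℓ i⌉₊ = n}.ncard : ℝ))
    (fun n => Nat.cast_nonneg _) (c := c) (h := h) hK (fun n m hn hm => by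
      refine (hsup n m hn hm).trans (mul_le_mul_of_nonneg_left ?_ hK.le)
      have e : {i | ⌈ℓ i⌉₊ ∈ Finset.Icc (n + m - c) (n + m + c)} =
          ⋃ j ∈ Finset.Icc (n + m - c) (n + m + c), {i | ⌈ℓ i⌉₊ = j} := by
        ext i; simp
      rw [e]
      exact_mod_cast Finset.set_ncard_biUnion_le (Finset.Icc (n + m - c) (n + m + c)) _) (by
      intro s hs
      obtain ⟨C, hC⟩ := hgr s hs
      refine ⟨C, fun n => (?_ : _ ≤ _).trans (hC n (Nat.cast_nonneg n))⟩
      have hsub : {i | ⌈ℓ i⌉₊ = n} ⊆ {i | ℓ i ≤ (n : ℝ)} := by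
        intro i hi
        have h1 : ℓ i ≤ ⌈ℓ i⌉₊ := Nat.le_ceil _
        have h2 : ⌈ℓ i⌉₊ = n := hi
        rw [h2] at h1
        exact h1
      exact_mod_cast Set.ncard_le_ncard hsub (hfin n))
  have hr1 : Real.exp (-h) < 1 := by rw [Real.exp_lt_one_iff]; linarith
  have h6 : 0 < (1 - Real.exp (-h))⁻¹ := inv_pos.2 (by linarith)
  exact ⟨C * Real.exp h * (1 - Real.exp (-h))⁻¹, by positivity, fun R hR =>
    ncard_le_of_windows ℓ hC.le hh hfin hb hR⟩

end Vale.Agent.P207.C1
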